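import Vale.Agent.Lib.P154N.Leaf
import Vale.Agent.Lib.P154Neg.Far

/-!
# From the chain of merge inequalities to nonreconstruction on the `d`-ary tree, `d = k + 2`
-/

open Filter Topology

namespace Vale.Agent.Lib.P154N

open Vale.Agent.Lib.P154 Vale.Agent.Lib.P154GW Vale.Agent.Lib.P154K Vale.Agent.Lib.P154Neg Tp

noncomputable section

/-- The syntactic conditions of the data. -/
def Ctx.okB (X : Ctx) : Bool :=
  Nat.ble 6 (X.P.D + X.P.g) && !X.Lc.isEmpty && !X.La.isEmpty && !X.Lb.isEmpty && Nat.ble 1 X.P.D &&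
    decide (0 < X.P.qd) && decide (0 < X.P.e) &&
    X.Lc.all (fun t => Nat.ble (2 * t.1 + 3 * t.2.1) (X.P.D - 1 + 1)) &&
    X.La.all (fun t => Nat.ble (2 * t.1 + 3 * t.2.1) (X.P.D + X.P.g)) &&
    X.Lb.all (fun t => Nat.ble (2 * t.1 + 3 * t.2.1) (X.P.D + X.P.g))

lemma ne_nil_of {α : Type} {l : List α} (h : (!l.isEmpty) = true) : l ≠ [] := by
  intro e
  simp [e] at h

lemma Ctx.ok_of_check {X : Ctx} (hb : X.okB = true) (hψ : ∀ c, InSx 1 c → 0 ≤ potL X.Lc c) : X.OK := by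
  simp only [Ctx.okB, Bool.and_eq_true, decide_eq_true_eq, List.all_eq_true] at hb
  obtain ⟨⟨⟨⟨⟨⟨⟨⟨⟨h1, h2⟩, h3⟩, h4⟩, h5⟩, h6⟩, h7⟩, h8⟩, h9⟩, h10⟩ := hb
  exact ⟨Nat.le_of_ble_eq_true h1, ne_nil_of h2, ne_nil_of h3, ne_nil_of h4, Nat.le_of_ble_eq_true h5, h6, h7,
    fun t ht => Nat.le_of_ble_eq_true (h8 t ht), fun t ht => Nat.le_of_ble_eq_true (h9 t ht),
    fun t ht => Nat.le_of_ble_eq_true (h10 t ht), hψ⟩

/-- All the conditions of the bound on the range of the normalization. -/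
def qAll (P : Par) (Q : List (ℕ × ℤ)) (l h : ℤ) (pts : List (ℤ × ℕ)) : Bool :=
  !Q.isEmpty && (Q.all fun t => Nat.ble t.1 P.g) && decide (0 < P.e) && decide (0 < l) && !pts.isEmpty &&
    decide (lastCut l pts = h) && qCheck P Q l pts

/-- A rotation with a polynomial bound from the check. -/
theorem good_of_check {X : Ctx} {P : Par} {Q : List (ℕ × ℤ)} {l h : ℤ} {pts : List (ℤ × ℕ)} (hXP : X.P = P)
    (hc : qAll P Q l h pts = true) : (RT.q Q l h).good X := by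
  simp only [qAll, Bool.and_eq_true, decide_eq_true_eq, List.all_eq_true] at hc
  obtain ⟨⟨⟨⟨⟨⟨h1, h2⟩, h3⟩, h4⟩, h5⟩, h6⟩, h7⟩ := hc
  have hQ' : ∀ t ∈ Q, t.1 ≤ P.g := fun t ht => Nat.le_of_ble_eq_true (h2 t ht)
  have : QB P Q l h := by
    refine ⟨ne_nil_of h1, hQ', h4, fun y h0 h8 => ?_⟩
    subst h6
    exact qCheck_bound (ne_nil_of h1) hQ' h3 pts l h7 y h0 h8 (ne_nil_of h5)
  rw [← hXP] at this
  exact this

/-- The lower bound of a list with first term a multiple of the second power sum, from a check on the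
chamber. -/
theorem pot_lb {A B : ℤ} {T : List (ℕ × ℕ × ℤ)} {n : ℕ}
    (hT : (T.all fun t => Nat.ble (2 * t.1 + 3 * t.2.1) n) = true) (hn : 2 ≤ n)
    (hc : chk n 0 (potE ((1, 0, A - B) :: T) n (chamber 1 1).den (chamber 1 1).exA) = true) (c : Tp)
    (hC : InSx 1 c) : (B : ℝ) * p2T c ≤ potL ((1, 0, A) :: T) c := by
  have hL : ∀ t ∈ ((1, 0, A - B) :: T : List (ℕ × ℕ × ℤ)), 2 * t.1 + 3 * t.2.1 ≤ n := by
    intro t ht
    rcases List.mem_cons.1 ht with rfl | ht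
    · simpa using hn
    · exact Nat.le_of_ble_eq_true (List.all_eq_true.1 hT t ht)
  have h := potL_nonneg_of_check (L := (1, 0, A - B) :: T) (by simp) hL hc c hC
  simp only [potL, List.map_cons, List.sum_cons] at h ⊢
  push_cast at h ⊢
  simp only [pow_zero, pow_one, mul_one] at h ⊢
  linarith

lemma inSx_scale {μ : ℝ} {c : Tp} (hc : InSx 1 c) (h0 : 0 ≤ μ) (h1 : μ ≤ 1) : InSx 1 (scale μ c) := by
  refine ⟨?_, ?_, ?_, ?_⟩
  · have := hc.zs
    simp only [Tp.ZS, scale] at this ⊢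
    have e : μ * c.x + μ * c.y + μ * c.z = μ * (c.x + c.y + c.z) := by ring
    rw [e, this, mul_zero]
  · simp only [scale]; nlinarith [hc.hx]
  · simp only [scale]; nlinarith [hc.hy]
  · simp only [scale]; nlinarith [hc.hz]


/-- The list of the second power sum. -/
def LP2 : List (ℕ × ℕ × ℤ) := [(1, 0, 1000)]

/-- The right side of the inequality of the second power sum. -/
def RP2 (dn mn : ℤ) : List (ℕ × ℕ × ℕ × ℕ × ℤ) := [(1, 0, 0, 0, 1000), (0, 0, 1, 0, dn), (0, 0, 2, 0, mn)]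

/-- The inequality of the second power sum from two checks. -/
theorem hP_of_check {p q n : ℕ} {dn mn : ℤ} (hq : 0 < q) (hs : 2 * p < q) (hn : 4 ≤ n)
    (hc1 : chk (3 + n) (3 + n) (mkF (chamber 1 1) (chamberN p q) LP2 1 (RP2 dn mn) n n) = true)
    (hc2 : chk (3 + n) (3 + n) (mkF (chamber 1 1) (chamberNR p q) LP2 1 (RP2 dn mn) n n) = true)
    (a c : Tp) (ha : InSx 1 a) (hc : InSx 1 c) :
    KT p2T a (sc ((p : ℝ) / q) c) ≤
      p2T a + ((dn : ℝ) / 1000) * p2T (sc ((p : ℝ) / q) c) + ((mn : ℝ) / 1000) * p2T (sc ((p : ℝ) / q) c) ^ 2 := by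
  have hL : ∀ t ∈ LP2, 2 * t.1 + 3 * t.2.1 ≤ 1 + 1 := by
    intro t ht
    simp only [LP2, List.mem_singleton] at ht
    subst ht
    norm_num
  have hR : ∀ t ∈ RP2 dn mn, 2 * t.1 + 3 * t.2.1 ≤ n ∧ 2 * t.2.2.1 + 3 * t.2.2.2.1 ≤ n := by
    intro t ht
    simp only [RP2, List.mem_cons, List.not_mem_nil, or_false] at ht
    rcases ht with rfl | rfl | rfl <;> constructor <;> norm_num <;> omega
  have h1 : HoldsOn LP2 (RP2 dn mn) (chamber 1 1) (chamberN p q) :=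
    holdsOn_of_check hc1 (by simp [LP2]) (by simp [RP2]) hL hR (by simp [chamber]) (chamberN_den p q hq)
  have h2 : HoldsOn LP2 (RP2 dn mn) (chamber 1 1) (chamberNR p q) :=
    holdsOn_of_check hc2 (by simp [LP2]) (by simp [RP2]) hL hR (by simp [chamber]) (chamberNR_den p q hq)
  have key := avg6_le_allN hq hs h1 h2 a c ha hc
  simp only [KT, avg6, potL, LP2, RP2, rhsL, List.map_cons, List.map_nil, List.sum_cons, List.sum_nil] at key ⊢
  push_cast at key ⊢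
  simp only [pow_zero, pow_one, mul_one, one_mul, add_zero] at key ⊢
  have e : ∀ x y : ℝ, x * (1000 * y) = 1000 * (x * y) := fun x y => by ring
  simp only [e] at key
  rw [div_le_iff₀ (by norm_num)]
  rw [div_le_iff₀ (by norm_num)] at key
  have e2 : ((dn : ℝ) / 1000) = (dn : ℝ) * (1 / 1000) := by ring
  have e3 : ((mn : ℝ) / 1000) = (mn : ℝ) * (1 / 1000) := by ring
  rw [e2, e3]
  linarith


/-- The ray inequality from one check. -/
theorem ray_of_chk {L : List (ℕ × ℕ × ℤ)} {n m : ℕ}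
    (hb : ((!L.isEmpty) && L.all fun t => Nat.ble (2 * t.1 + 3 * t.2.1) n && Nat.ble (2 * t.1 + 3 * t.2.1 - 2) m &&
      Nat.ble 2 (2 * t.1 + 3 * t.2.1)) = true)
    (hc : chk n m (rayE L n m (chamber 1 1).den (chamber 1 1).exA) = true) (c : Tp)
    (hC : InSx 1 c) (μ : ℝ) (h0 : 0 ≤ μ) (h1 : μ ≤ 1) :
    potL L (scale μ c) ≤ μ ^ 2 * potL L c := by
  simp only [Bool.and_eq_true, List.all_eq_true] at hb
  obtain ⟨h1', h2'⟩ := hb
  exact potL_ray_of_check (ne_nil_of h1') (fun t ht => Nat.le_of_ble_eq_true (h2' t ht).1.1)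
    (fun t ht => Nat.le_of_ble_eq_true (h2' t ht).1.2) (fun t ht => Nat.le_of_ble_eq_true (h2' t ht).2) hc c hC μ h0 h1


/-- The negated terms of a list. -/
def negL (T : List (ℕ × ℕ × ℤ)) : List (ℕ × ℕ × ℤ) := T.map fun t => (t.1, t.2.1, -t.2.2)

lemma potL_negL (T : List (ℕ × ℕ × ℤ)) (c : Tp) : potL (negL T) c = -potL T c := by
  induction T with
  | nil => simp [negL, potL]
  | cons x l ih =>
    simp only [negL, potL, List.map_cons, List.sum_cons] at ih ⊢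
    rw [ih]
    push_cast
    ring

/-- The upper bound of a list from a check on the chamber. -/
theorem pot_ub {A M : ℤ} {T : List (ℕ × ℕ × ℤ)} {n : ℕ}
    (hT : (T.all fun t => Nat.ble (2 * t.1 + 3 * t.2.1) n) = true) (hn : 2 ≤ n)
    (hc : chk n 0 (potE ((0, 0, M) :: (1, 0, -A) :: negL T) n (chamber 1 1).den (chamber 1 1).exA) = true) (c : Tp)
    (hC : InSx 1 c) : potL ((1, 0, A) :: T) c ≤ M := by
  have hL : ∀ t ∈ ((0, 0, M) :: (1, 0, -A) :: negL T : List (ℕ × ℕ × ℤ)), 2 * t.1 + 3 * t.2.1 ≤ n := by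
    intro t ht
    rcases List.mem_cons.1 ht with rfl | ht
    · simp
    rcases List.mem_cons.1 ht with rfl | ht
    · simpa using hn
    · simp only [negL, List.mem_map] at ht
      obtain ⟨x, hx, rfl⟩ := ht
      exact Nat.le_of_ble_eq_true (List.all_eq_true.1 hT x hx)
  have h := potL_nonneg_of_check (L := (0, 0, M) :: (1, 0, -A) :: negL T) (by simp) hL hc c hC
  have e : potL ((0, 0, M) :: (1, 0, -A) :: negL T) c = (M : ℝ) - potL ((1, 0, A) :: T) c := by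
    have e1 : potL ((0, 0, M) :: (1, 0, -A) :: negL T) c =
        (M : ℝ) * (p2T c ^ 0 * p3T c ^ 0) + ((-A : ℤ) : ℝ) * (p2T c ^ 1 * p3T c ^ 0) + potL (negL T) c := by
      simp only [potL, List.map_cons, List.sum_cons]
      ring
    have e2 : potL ((1, 0, A) :: T) c = ((A : ℤ) : ℝ) * (p2T c ^ 1 * p3T c ^ 0) + potL T c := by
      simp only [potL, List.map_cons, List.sum_cons]
    rw [e1, e2, potL_negL]
    push_cast
    ring
  rw [e] at h
  linarith

/-- The inequality of the second power sum from the merge inequality for its list. -/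
theorem hP_of_roots {X : Ctx} {dn mn : ℤ} (hLc : X.Lc = LP2) (hLa : X.La = [(1, 0, 1000)])
    (hLb : X.Lb = [(1, 0, dn), (2, 0, mn)]) (hC : X.C = 0) (ht : X.t = 0) {p q : ℕ} (hq : 0 < q) (hs : 2 * p ≤ q)
    (hP : HoldsN X (chamber 1 1) (chamberN p q)) (hM : HoldsN X (chamber 1 1) (chamberNR p q))
    (a c : Tp) (ha : InSx 1 a) (hc : InSx 1 c) :
    KT p2T a (sc ((p : ℝ) / q) c) ≤
      p2T a + ((dn : ℝ) / 1000) * p2T (sc ((p : ℝ) / q) c) + ((mn : ℝ) / 1000) * p2T (sc ((p : ℝ) / q) c) ^ 2 := by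
  have key := KT_le_all hq hs hP hM a c ha hc
  simp only [Ctx.rhs, rhs3, hLc, hLa, hLb, hC, ht] at key
  simp only [KT, avg6, potL, LP2, List.map_cons, List.map_nil, List.sum_cons, List.sum_nil] at key ⊢
  push_cast at key ⊢
  simp only [pow_zero, pow_one, mul_one, one_mul, add_zero, zero_mul, sub_zero] at key ⊢
  have e : ∀ x y : ℝ, x * (1000 * y) = 1000 * (x * y) := fun x y => by ring
  simp only [e] at key
  rw [div_le_iff₀ (by norm_num)]
  rw [div_le_iff₀ (by norm_num)] at key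
  have e2 : ((dn : ℝ) / 1000) = (dn : ℝ) * (1 / 1000) := by ring
  have e3 : ((mn : ℝ) / 1000) = (mn : ℝ) * (1 / 1000) := by ring
  rw [e2, e3]
  linarith

/-- **Assembly.** -/
theorem assemble {k : ℕ} {X : ℕ → Ctx} {Ly Lf : List (ℕ × ℕ × ℤ)} {s δ M y₀ m₀ K₀ U lam : ℝ} {t B : ℤ} {N : ℕ}
    (hs0 : 0 < s) (ht : 0 < t) (hδ : 0 ≤ δ) (hM : 0 ≤ M) (hK : 0 < K₀) (hCc : ∀ j, 0 ≤ (X j).C)
    (hl0' : -1 / 2 ≤ lam) (hls : -s ≤ lam) (hlam : lam < 0) (hd : ((k : ℝ) + 2) * lam ^ 2 ≤ 1)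
    (hX0 : (X 0).La = Ly ∧ (X 0).Lb = Ly ∧ (X 0).t = t)
    (hXj : ∀ j, 1 ≤ j → j ≤ k → (X j).La = (X (j - 1)).Lc ∧ (X j).Lb = Ly ∧ (X j).t = 0)
    (hXk : (X k).Lc = Lf)
    (h0 : ∀ a c, InSx 1 a → InSx 1 c → KT (potL (X 0).Lc) (sc s a) (sc s c) ≤ (X 0).rhs (sc s a) (sc s c))
    (hj : ∀ j, 1 ≤ j → j ≤ k → ∀ a c, InSx 1 a → InSx 1 c →
      KT (potL (X j).Lc) a (sc s c) ≤ (X j).rhs a (sc s c))
    (hY : ∀ c, potL Ly (sc s c) = s ^ 2 * potL Lf c - (B : ℝ) * p2T (sc s c) ^ 3)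
    (hray : ∀ c, InSx 1 c → ∀ μ : ℝ, 0 ≤ μ → μ ≤ 1 → potL Lf (scale μ c) ≤ μ ^ 2 * potL Lf c)
    (hP : ∀ a c, InSx 1 a → InSx 1 c → KT p2T a (sc s c) ≤
      p2T a + (1 + δ) * p2T (sc s c) + M * p2T (sc s c) ^ 2)
    (hge : ∀ c, InSx 1 c → p2T c ≤ K₀ * potL Lf c)
    (hfar : ∀ n, N ≤ n → PhiN k lam p2T n ≤ y₀ ∧ PhiN k lam (fun c => p2T c ^ 2) n ≤ m₀)
    (hy : 0 ≤ y₀) (hm : 0 ≤ m₀)
    (hU : (1 + δ) * (y₀ / ((k : ℝ) + 2)) + M * (m₀ / ((k : ℝ) + 2) ^ 2) ≤ U)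
    (hbudget : (∑ j ∈ Finset.range (k + 1), ((X j).C : ℝ) * ((j : ℝ) + 1)) * U ≤ ((k : ℝ) + 2) * B) :
    Tendsto (reconDist 3 (k + 2) lam) atTop (𝓝 0) := by
  have hl1 : lam ≤ 1 := by linarith
  have hsne : s ≠ 0 := hs0.ne'
  have hμ : ∀ c, scale lam c = sc s (scale (-lam / s) c) := by
    intro c
    simp only [sc, scale_scale]
    congr 1
    field_simp
  have hm0 : 0 ≤ -lam / s := div_nonneg (by linarith) hs0.le
  have hm1 : -lam / s ≤ 1 := by
    rw [div_le_one hs0]; linarith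
  have hinS : ∀ c, InSx 1 c → InSx 1 (scale (-lam / s) c) := fun c hc => inSx_scale hc hm0 hm1
  have htr : (0 : ℝ) < t := by exact_mod_cast ht
  refine tendsto_far (k := k) (lam := lam) (pot := fun j => potL (X (j - 1)).Lc) (Y := potL Ly)
    (Cc := fun j => ((X j).C : ℝ)) (t := (t : ℝ)) (β := (B : ℝ)) (δ := δ) (M := M) (y₀ := y₀) (m₀ := m₀) (K₀ := K₀)
    (N := N) hl0' hl1 hlam.ne hd htr hδ hM hK (fun j => by exact_mod_cast hCc j) ?_ ?_ ?_ ?_ ?_ hfar ?_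
  · intro c c' hc hc'
    rw [hμ c, hμ c']
    have := h0 _ _ (hinS c hc) (hinS c' hc')
    simp only [Ctx.rhs, rhs3, hX0.1, hX0.2.1, hX0.2.2] at this
    simpa using this
  · intro j hj1 hj2 a c' ha hc'
    rw [hμ c']
    have := hj j hj1 hj2 a _ ha (hinS c' hc')
    obtain ⟨e1, e2, e3⟩ := hXj j hj1 hj2
    simp only [Ctx.rhs, rhs3, e1, e2, e3] at this
    simpa using this
  · intro c hc
    have e1 := hY (scale (-lam / s) c)
    rw [← hμ c] at e1
    have e2 := hray c hc _ hm0 hm1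
    have e3 : (k + 1 - 1) = k := by omega
    simp only [e3, hXk]
    rw [e1]
    have e4 : lam ^ 2 = s ^ 2 * (-lam / s) ^ 2 := by field_simp
    rw [e4, mul_assoc]
    have := mul_le_mul_of_nonneg_left e2 (sq_nonneg s)
    linarith
  · intro a c' ha hc'
    rw [hμ c']
    exact hP a _ ha (hinS c' hc')
  · intro c hc
    have e3 : (k + 1 - 1) = k := by omega
    simp only [e3, hXk]
    exact hge c hc
  · set Z := (1 + δ) * (lam ^ 2 * y₀) + M * (lam ^ 4 * m₀) with hZ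
    have hk : (0 : ℝ) < (k : ℝ) + 2 := by positivity
    have hl2 : lam ^ 2 ≤ 1 / ((k : ℝ) + 2) := by
      rw [le_div_iff₀ hk]; linarith
    have hl4 : lam ^ 4 ≤ 1 / ((k : ℝ) + 2) ^ 2 := by
      have : lam ^ 4 = (lam ^ 2) ^ 2 := by ring
      rw [this]
      have h5 := pow_le_pow_left₀ (sq_nonneg lam) hl2 2
      have e6 : (1 / ((k : ℝ) + 2)) ^ 2 = 1 / ((k : ℝ) + 2) ^ 2 := by
        rw [div_pow, one_pow]
      rwa [e6] at h5
    have hZU : Z ≤ U := by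
      refine le_trans ?_ hU
      have a1 : (1 + δ) * (lam ^ 2 * y₀) ≤ (1 + δ) * (y₀ / ((k : ℝ) + 2)) := by
        apply mul_le_mul_of_nonneg_left _ (by linarith)
        rw [div_eq_mul_one_div, mul_comm]
        exact mul_le_mul_of_nonneg_left hl2 hy
      have a2 : M * (lam ^ 4 * m₀) ≤ M * (m₀ / ((k : ℝ) + 2) ^ 2) := by
        apply mul_le_mul_of_nonneg_left _ hM
        rw [div_eq_mul_one_div, mul_comm]
        exact mul_le_mul_of_nonneg_left hl4 hm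
      rw [hZ]
      linarith
    have hS : 0 ≤ ∑ j ∈ Finset.range (k + 1), ((X j).C : ℝ) * ((j : ℝ) + 1) :=
      Finset.sum_nonneg fun j _ => mul_nonneg (by exact_mod_cast hCc j) (by positivity)
    have e : ∑ j ∈ Finset.range (k + 1), ((X j).C : ℝ) * (((j : ℝ) + 1) * Z) =
        (∑ j ∈ Finset.range (k + 1), ((X j).C : ℝ) * ((j : ℝ) + 1)) * Z := by
      rw [Finset.sum_mul]
      apply Finset.sum_congr rfl
      intro j _
      ring
    rw [e]
    exact le_trans (mul_le_mul_of_nonneg_left hZU hS) hbudget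

end

end Vale.Agent.Lib.P154N
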