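import Vale.Agent.Lib.P154N.Assemble

/-!
# Removing common factors of two from a triangle

The doubling of the denominator at each bisection leaves common factors.  Removing them gives smaller polynomials.
-/

namespace Vale.Agent.Lib.P154N

open Vale.Agent.Lib.P154 Vale.Agent.Lib.P154GW Vale.Agent.Lib.P154K Vale.Agent.Lib.P154Neg Tp

/-- All the numbers of a triangle are even. -/
def Trg.evenB (T : Trg) : Bool :=
  T.x0 % 2 == 0 && T.y0 % 2 == 0 && T.z0 % 2 == 0 && T.x1 % 2 == 0 && T.y1 % 2 == 0 && T.z1 % 2 == 0 &&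
    T.x2 % 2 == 0 && T.y2 % 2 == 0 && T.z2 % 2 == 0 && T.den % 2 == 0

/-- Half of all the numbers of a triangle. -/
def Trg.half (T : Trg) : Trg :=
  ⟨T.x0 / 2, T.y0 / 2, T.z0 / 2, T.x1 / 2, T.y1 / 2, T.z1 / 2, T.x2 / 2, T.y2 / 2, T.z2 / 2, T.den / 2⟩

/-- Remove at most `k` factors of two. -/
def Trg.red : ℕ → Trg → Trg
  | 0, T => T
  | k + 1, T => if Trg.evenB T then Trg.red k (Trg.half T) else T

lemma half_cast (a : ℤ) (h : (a % 2 == 0) = true) : (((a / 2 : ℤ)) : ℝ) = (a : ℝ) / 2 := by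
  have h' : a % 2 = 0 := by simpa using h
  obtain ⟨b, rfl⟩ : ∃ b, a = 2 * b := ⟨a / 2, by omega⟩
  rw [Int.mul_ediv_cancel_left _ (by norm_num)]
  push_cast
  ring

lemma Trg.half_pt {T : Trg} (h : Trg.evenB T = true) (hD : 0 < T.den) (u v w : ℝ) :
    (Trg.half T).pt u v w = T.pt u v w := by
  simp only [Trg.evenB, Bool.and_eq_true] at h
  obtain ⟨⟨⟨⟨⟨⟨⟨⟨⟨h1, h2⟩, h3⟩, h4⟩, h5⟩, h6⟩, h7⟩, h8⟩, h9⟩, h10⟩ := h
  have hd' : T.den % 2 = 0 := by simpa using h10
  obtain ⟨m, hm⟩ : ∃ m, T.den = 2 * m := ⟨T.den / 2, by omega⟩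
  have hm0 : 0 < m := by omega
  have hc : ((T.den / 2 : ℕ) : ℝ) = (T.den : ℝ) / 2 := by
    rw [hm, Nat.mul_div_cancel_left _ (by norm_num)]
    push_cast
    ring
  have hT : (T.den : ℝ) ≠ 0 := by exact_mod_cast hD.ne'
  apply Tp.ext <;>
  · simp only [Trg.pt, Trg.half, half_cast _ h1, half_cast _ h2, half_cast _ h3, half_cast _ h4, half_cast _ h5,
      half_cast _ h6, half_cast _ h7, half_cast _ h8, half_cast _ h9, hc]
    field_simp

lemma Trg.half_den {T : Trg} (h : Trg.evenB T = true) (hD : 0 < T.den) : 0 < (Trg.half T).den := by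
  simp only [Trg.evenB, Bool.and_eq_true] at h
  have hd' : T.den % 2 = 0 := by simpa using h.2
  simp only [Trg.half]
  omega

lemma Trg.red_pt (k : ℕ) : ∀ (T : Trg) (_ : 0 < T.den) (u v w : ℝ), (Trg.red k T).pt u v w = T.pt u v w ∧ 0 < (Trg.red k T).den := by
  induction k with
  | zero => intro T hD u v w; exact ⟨rfl, hD⟩
  | succ k ih =>
    intro T hD u v w
    simp only [Trg.red]
    split_ifs with h
    · obtain ⟨e, d⟩ := ih (Trg.half T) (Trg.half_den h hD) u v w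
      exact ⟨e.trans (Trg.half_pt h hD u v w), d⟩
    · exact ⟨rfl, hD⟩

/-- The inequality on a triangle from the one on the triangle without common factors. -/
theorem HoldsN.of_red {X : Ctx} {Ta Tb : Trg} {k m : ℕ} (h : HoldsN X (Trg.red k Ta) (Trg.red m Tb)) :
    HoldsN X Ta Tb := by
  intro hDa hDb u v w u' v' w' hu hv hw hu' hv' hw' hs hs' ha hb
  obtain ⟨e1, d1⟩ := Trg.red_pt k Ta hDa u v w
  obtain ⟨e2, d2⟩ := Trg.red_pt m Tb hDb u' v' w'
  have := h d1 d2 u v w u' v' w' hu hv hw hu' hv' hw' hs hs' (by rw [e1]; exact ha) (by rw [e2]; exact hb)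
  rwa [e1, e2] at this

end Vale.Agent.Lib.P154N
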