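import Vale.Agent.Lib.P154Neg.Far
import Vale.Agent.Lib.P154Neg.Grid

/-!
# The merge inequality on a pair of small triangles, with a bound for each rotation

On a pair of small triangles the normalization of each rotation has a small range.  The power of its inverse is bounded by
a polynomial chosen for this range, or the potential is bounded by a constant.
-/

namespace Vale.Agent.Lib.P154N

open Vale.Agent.Lib.P154 Vale.Agent.Lib.P154GW Vale.Agent.Lib.P154K Vale.Agent.Lib.P154Neg Tp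

/-- How the term of one rotation is bounded. -/
inductive RT where
  | q (Q : List (ℕ × ℤ)) (l h : ℤ)
  | top

/-- The bound of the term of one rotation. -/
def rtE (L : List (ℕ × ℕ × ℤ)) (D g : ℕ) (qd M : ℤ) (P2 P3 N σ : Ex) : RT → Ex
  | .q Q _ _ => .mul (tE L (D - 1) P2 P3 N) (qHom Q g N σ)
  | .top => .mul (.c (qd * M)) (.mul N (.pow σ (D + g - 1)))

/-- The polynomial of a list at a point of the second triangle. -/
def potB (L : List (ℕ × ℕ × ℤ)) (n : ℕ) (Db : Int) (B : E3) : Ex :=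
  sumE (L.map fun t => .mul (.c t.2.2) (.mul (.mul (.pow (p2E B) t.1) (.pow (p3E B) t.2.1))
    (.pow (.mul (.c Db) sB) (n - (2 * t.1 + 3 * t.2.1)))))

/-- The numerator of the right side. -/
def rE3 (La Lb : List (ℕ × ℕ × ℤ)) (C t : ℤ) (n : ℕ) (Da Db : Int) (A B : E3) : Ex :=
  .add (.add (.mul (potE La n Da A) (.pow (.mul (.c Db) sB) n))
      (.mul (.pow (.mul (.c Da) sA) n) (potB Lb n Db B)))
    (.mul (.mul (p2E A) (.pow (.mul (.c Da) sA) (n - 2)))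
      (.sub (.mul (.c C) (.mul (.pow (p2E B) 3) (.pow (.mul (.c Db) sB) (n - 6))))
        (.mul (.c t) (.mul (p2E B) (.pow (.mul (.c Db) sB) (n - 2))))))

/-- The polynomial whose nonnegativity gives the merge inequality on the two triangles. -/
def mkQ3 (Ta Tb : Trg) (Lc La Lb : List (ℕ × ℕ × ℤ)) (C t : ℤ) (D g : ℕ) (qd M : ℤ)
    (r0 r1 r2 : RT) : Ex :=
  let Da : Int := Ta.den
  let Db : Int := Tb.den
  let A := Ta.exA
  let B := Tb.exB
  let N0 := nE Da Db A B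
  let N1 := nE Da Db A B.r1
  let N2 := nE Da Db A B.r2
  let C0 := cE Da Db A B
  let C1 := cE Da Db A B.r1
  let C2 := cE Da Db A B.r2
  let σ : Ex := .mul (.c (Da * Db)) (.mul sA sB)
  .sub (.mul (.c (3 * qd)) (rE3 La Lb C t (D + g) Da Db A B))
    (.add (.add (rtE Lc D g qd M (p2E C0) (p3E C0) N0 σ r0) (rtE Lc D g qd M (p2E C1) (p3E C1) N1 σ r1))
      (rtE Lc D g qd M (p2E C2) (p3E C2) N2 σ r2))

noncomputable section

/-- The real right side. -/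
def rhs3 (La Lb : List (ℕ × ℕ × ℤ)) (C t : ℤ) (a b : Tp) : ℝ :=
  potL La a + potL Lb b + (C : ℝ) * (p2T a * p2T b ^ 3) - (t : ℝ) * (p2T a * p2T b)

/-- What is needed of a rotation. -/
def RTgood (L : List (ℕ × ℕ × ℤ)) (D g : ℕ) (qd M : ℤ) (a b : Tp) : RT → Prop
  | .q Q _ _ => Q ≠ [] ∧ (∀ t ∈ Q, t.1 ≤ g) ∧ 0 < 1 + 3 * sF a b ∧
      (qd : ℝ) ≤ (1 + 3 * sF a b) ^ (D - 1) * qPoly Q (1 + 3 * sF a b) ∧ 0 ≤ potL L (wF a b)
  | .top => 0 ≤ 1 + 3 * sF a b ∧ (0 < 1 + 3 * sF a b → potL L (wF a b) ≤ M)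

lemma val_potB {L : List (ℕ × ℕ × ℤ)} (hne : L ≠ []) {n : ℕ} (hL : ∀ t ∈ L, 2 * t.1 + 3 * t.2.1 ≤ n)
    {r : Fin 6 → ℝ} {Db : ℝ} {B : E3} {b : Tp} (iB : ℤ) (h1 : (iB : ℝ) = Db)
    (hT : sB.val r = 1) (hB : B.val r = scale Db b) :
    (potB L n iB B).val r = Db ^ n * potL L b := by
  rw [potB, val_sumE _ (by simpa using hne), potL, List.map_map, ← List.sum_map_mul_left]
  apply congrArg
  apply List.map_congr_left
  intro t ht
  simp only [Function.comp, Ex.val, val_p2E, val_p3E, hB, p2T_scale', p3T_scale', hT]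
  have b1 := hL t ht
  have e1 : Db ^ n = Db ^ (n - (2 * t.1 + 3 * t.2.1)) * (Db ^ 2) ^ t.1 * (Db ^ 3) ^ t.2.1 := by
    have : n = (n - (2 * t.1 + 3 * t.2.1)) + 2 * t.1 + 3 * t.2.1 := by omega
    conv_lhs => rw [this]
    rw [pow_add, pow_add, pow_mul, pow_mul]
  rw [e1]
  rw [h1, mul_pow, mul_pow]
  simp only [mul_one]
  ring

lemma val_rE3 {La Lb : List (ℕ × ℕ × ℤ)} (hLa : La ≠ []) (hLb : Lb ≠ []) {n : ℕ} (hn : 6 ≤ n)
    (hA' : ∀ t ∈ La, 2 * t.1 + 3 * t.2.1 ≤ n) (hB' : ∀ t ∈ Lb, 2 * t.1 + 3 * t.2.1 ≤ n) (C t : ℤ)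
    {r : Fin 6 → ℝ} {Da Db : ℝ} {A B : E3} {a b : Tp} (iA iB : ℤ) (h1 : (iA : ℝ) = Da) (h2 : (iB : ℝ) = Db)
    (hS : sA.val r = 1) (hT : sB.val r = 1) (hA : A.val r = scale Da a) (hB : B.val r = scale Db b) :
    (rE3 La Lb C t n iA iB A B).val r = Da ^ n * Db ^ n * rhs3 La Lb C t a b := by
  simp only [rE3, Ex.val, val_potB hLb hB' iB h2 hT hB, val_potE hLa hA' iA h1 hS hA, val_p2E, hA, hB,
    p2T_scale', hS, hT, mul_one, h1, h2, rhs3]
  have e1 : Da ^ n = Da ^ 2 * Da ^ (n - 2) := by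
    rw [← pow_add]; congr 1; omega
  have e2 : Db ^ n = (Db ^ 2) ^ 3 * Db ^ (n - 6) := by
    rw [← pow_mul, ← pow_add]; congr 1; omega
  have e3 : Db ^ n = Db ^ 2 * Db ^ (n - 2) := by
    rw [← pow_add]; congr 1; omega
  have e4 : Da ^ n * (Db ^ n * (C : ℝ) * (p2T a * p2T b ^ 3)) =
      Da ^ 2 * p2T a * Da ^ (n - 2) * ((C : ℝ) * ((Db ^ 2 * p2T b) ^ 3 * Db ^ (n - 6))) := by
    rw [e1, e2]; ring
  have e5 : Da ^ n * (Db ^ n * (t : ℝ) * (p2T a * p2T b)) =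
      Da ^ 2 * p2T a * Da ^ (n - 2) * ((t : ℝ) * (Db ^ 2 * p2T b * Db ^ (n - 2))) := by
    rw [e1, e3]; ring
  linear_combination e5 - e4

/-- The bound of a rotation. -/
lemma rt_bound {L : List (ℕ × ℕ × ℤ)} (hLne : L ≠ []) {D g : ℕ} (hD : 1 ≤ D) {qd M : ℤ} (hqd : 0 < qd)
    (hL : ∀ t ∈ L, 2 * t.1 + 3 * t.2.1 ≤ D - 1 + 1) {rt : RT}
    {r : Fin 6 → ℝ} {P2 P3 N σ : Ex} {a b : Tp} {DD : ℝ} (pD : 0 < DD)
    (h2 : P2.val r = DD ^ 2 * p2T (cF a b)) (h3 : P3.val r = DD ^ 3 * p3T (cF a b))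
    (hNv : N.val r = DD * (1 + 3 * sF a b)) (hσ : σ.val r = DD)
    (hgood : RTgood L D g qd M a b rt) :
    (qd : ℝ) * (DD ^ (D + g) * ((1 + 3 * sF a b) * potL L (wF a b))) ≤
      (rtE L D g qd M P2 P3 N σ rt).val r := by
  have hqd' : (0 : ℝ) < qd := by exact_mod_cast hqd
  cases rt with
  | q Q l h =>
    obtain ⟨hQne, hQg, hpos, hbd, hnn⟩ := hgood
    have t0 := val_tE (r := r) hLne hL (a := a) (b := b) (D := DD) (ne_of_gt pD) hpos h2 h3 hNv
    have q0 := val_qHom hQne hQg hNv hσ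
    simp only [rtE, Ex.val, t0, q0]
    set n := 1 + 3 * sF a b with hn
    set P := potL L (wF a b) with hP
    set Qv := qPoly Q n with hQv
    have e1 : D - 1 + 1 = D := by omega
    rw [e1]
    have e2 : n ^ D = n * n ^ (D - 1) := by
      rw [← pow_succ']; congr 1; omega
    have key : (qd : ℝ) * (n * P) ≤ (n ^ (D - 1) * Qv) * (n * P) :=
      mul_le_mul_of_nonneg_right hbd (mul_nonneg hpos.le hnn)
    have pp : 0 < DD ^ (D + g) := by positivity
    have := mul_le_mul_of_nonneg_left key pp.le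
    calc (qd : ℝ) * (DD ^ (D + g) * (n * P)) = DD ^ (D + g) * ((qd : ℝ) * (n * P)) := by ring
      _ ≤ DD ^ (D + g) * ((n ^ (D - 1) * Qv) * (n * P)) := this
      _ = (DD * n) ^ D * P * (DD ^ g * Qv) := by
        rw [mul_pow, pow_add, e2]
        ring
  | top =>
    obtain ⟨hpos, hbd⟩ := hgood
    simp only [rtE, Ex.val, hNv, hσ]
    set n := 1 + 3 * sF a b with hn
    have e1 : DD ^ (D + g) = DD * DD ^ (D + g - 1) := by
      rw [← pow_succ']; congr 1; omega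
    rcases hpos.eq_or_lt with h0 | h0
    · rw [← h0]
      simp
    · have hb := hbd h0
      have pp : 0 < DD ^ (D + g) := by positivity
      have h5 : n * potL L (wF a b) ≤ n * (M : ℝ) := mul_le_mul_of_nonneg_left hb h0.le
      have h6 := mul_le_mul_of_nonneg_left h5 (mul_pos hqd' pp).le
      push_cast
      rw [e1] at h6 ⊢
      nlinarith [h6]

/-- The inequality for one point of the two triangles. -/
theorem cyc_le_of_check3 {W n : ℕ} {Ta Tb : Trg} {Lc La Lb : List (ℕ × ℕ × ℤ)} {C t : ℤ} {D g : ℕ}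
    {qd M : ℤ} {r0 r1 r2 : RT}
    (hc : check W n n (mkQ3 Ta Tb Lc La Lb C t D g qd M r0 r1 r2) = true) (hn : n = D + g) (hn6 : 6 ≤ n)
    (hLc : Lc ≠ []) (hLa : La ≠ []) (hLb : Lb ≠ []) (hD1 : 1 ≤ D) (hqd : 0 < qd)
    (hcL : ∀ t ∈ Lc, 2 * t.1 + 3 * t.2.1 ≤ D - 1 + 1)
    (haL : ∀ t ∈ La, 2 * t.1 + 3 * t.2.1 ≤ n) (hbL : ∀ t ∈ Lb, 2 * t.1 + 3 * t.2.1 ≤ n)
    (hDa : 0 < Ta.den) (hDb : 0 < Tb.den)
    {r : Fin 6 → ℝ} (hr : ∀ i, 0 ≤ r i) {a b : Tp} (hP : Pt r Ta Tb a b)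
    (h0 : RTgood Lc D g qd M a b r0) (h1 : RTgood Lc D g qd M a b.r1 r1)
    (h2 : RTgood Lc D g qd M a b.r2 r2) :
    cyc Lc a b ≤ rhs3 La Lb C t a b := by
  subst hn
  have key := check_val hc r hr
  set Da : ℝ := (Ta.den : ℝ) with hDa'
  set Db : ℝ := (Tb.den : ℝ) with hDb'
  have pa : 0 < Da := by rw [hDa']; exact_mod_cast hDa
  have pb : 0 < Db := by rw [hDb']; exact_mod_cast hDb
  have hS : sA.val r = 1 := by rw [val_sA]; exact hP.sa
  have hT : sB.val r = 1 := by rw [val_sB]; exact hP.sb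
  have hA : Ta.exA.val r = scale Da a := hP.va
  have hB : Tb.exB.val r = scale Db b := hP.vb
  have hB1 : Tb.exB.r1.val r = scale Db b.r1 := by rw [r1_val, hB, r1_scale]
  have hB2 : Tb.exB.r2.val r = scale Db b.r2 := by rw [r2_val, hB, r2_scale]
  have i1 : (((Ta.den : ℕ) : ℤ) : ℝ) = Da := by rw [hDa']; push_cast; rfl
  have i2 : (((Tb.den : ℕ) : ℤ) : ℝ) = Db := by rw [hDb']; push_cast; rfl
  set DD := Da * Db with hDD
  have pD : 0 < DD := mul_pos pa pb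
  have n0 := val_nE hS hT hA hB _ _ i1 i2
  have n1 := val_nE hS hT hA hB1 _ _ i1 i2
  have n2 := val_nE hS hT hA hB2 _ _ i1 i2
  have c0 := val_cE hS hT hA hB _ _ i1 i2
  have c1 := val_cE hS hT hA hB1 _ _ i1 i2
  have c2 := val_cE hS hT hA hB2 _ _ i1 i2
  have hσ : (Ex.mul (.c (((Ta.den : ℕ) : ℤ) * ((Tb.den : ℕ) : ℤ))) (.mul sA sB)).val r = DD := by
    simp only [Ex.val, hS, hT, mul_one]
    push_cast
    rfl
  have b0 := rt_bound hLc hD1 hqd hcL (P2 := p2E (cE Ta.den Tb.den Ta.exA Tb.exB))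
    (P3 := p3E (cE Ta.den Tb.den Ta.exA Tb.exB)) pD (by rw [val_p2E, c0, p2T_scale'])
    (by rw [val_p3E, c0, p3T_scale']) n0 hσ h0
  have b1 := rt_bound hLc hD1 hqd hcL (P2 := p2E (cE Ta.den Tb.den Ta.exA Tb.exB.r1))
    (P3 := p3E (cE Ta.den Tb.den Ta.exA Tb.exB.r1)) pD (by rw [val_p2E, c1, p2T_scale'])
    (by rw [val_p3E, c1, p3T_scale']) n1 hσ h1
  have b2 := rt_bound hLc hD1 hqd hcL (P2 := p2E (cE Ta.den Tb.den Ta.exA Tb.exB.r2))
    (P3 := p3E (cE Ta.den Tb.den Ta.exA Tb.exB.r2)) pD (by rw [val_p2E, c2, p2T_scale'])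
    (by rw [val_p3E, c2, p3T_scale']) n2 hσ h2
  have rr := val_rE3 hLa hLb hn6 haL hbL C t _ _ i1 i2 hS hT hA hB
  simp only [mkQ3, Ex.val, rr] at key
  have hqd' : (0 : ℝ) < qd := by exact_mod_cast hqd
  have e2 : ((3 * qd : ℤ) : ℝ) * (Da ^ (D + g) * Db ^ (D + g) * rhs3 La Lb C t a b) =
      3 * (qd : ℝ) * (DD ^ (D + g) * rhs3 La Lb C t a b) := by
    rw [hDD, mul_pow]
    push_cast
    ring
  rw [e2] at key
  have pp : 0 < (qd : ℝ) * DD ^ (D + g) := by positivity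
  have fin : ((qd : ℝ) * DD ^ (D + g)) * (((1 + 3 * sF a b) * potL Lc (wF a b) +
      (1 + 3 * sF a b.r1) * potL Lc (wF a b.r1) + (1 + 3 * sF a b.r2) * potL Lc (wF a b.r2))) ≤
      ((qd : ℝ) * DD ^ (D + g)) * (3 * rhs3 La Lb C t a b) := by
    nlinarith [b0, b1, b2, key]
  have := le_of_mul_le_mul_left fin pp
  simp only [cyc]
  linarith


/-! ### Checks with the width read off from the majorant -/

/-- The check with the smallest width that the majorant allows. -/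
def chk (n m : ℕ) (e : Ex) : Bool := check (Nat.log2 e.maj + 2) n m e

lemma chk_val {n m : ℕ} {e : Ex} (h : chk n m e = true) (r : Fin 6 → ℝ) (hr : ∀ i, 0 ≤ r i) : 0 ≤ e.val r :=
  check_val h r hr

/-- The parameters shared by all the leaves. -/
structure Par where
  D : ℕ
  g : ℕ
  qd : ℤ
  e : ℤ

/-- The data of one merge inequality. -/
structure Ctx where
  P : Par
  Lc : List (ℕ × ℕ × ℤ)
  La : List (ℕ × ℕ × ℤ)
  Lb : List (ℕ × ℕ × ℤ)
  C : ℤ
  t : ℤ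
  M : ℤ

/-- The expected properties of the data. -/
structure Ctx.OK (X : Ctx) : Prop where
  hn6 : 6 ≤ X.P.D + X.P.g
  hLc : X.Lc ≠ []
  hLa : X.La ≠ []
  hLb : X.Lb ≠ []
  hD1 : 1 ≤ X.P.D
  hqd : 0 < X.P.qd
  he : 0 < X.P.e
  hcL : ∀ t ∈ X.Lc, 2 * t.1 + 3 * t.2.1 ≤ X.P.D - 1 + 1
  haL : ∀ t ∈ X.La, 2 * t.1 + 3 * t.2.1 ≤ X.P.D + X.P.g
  hbL : ∀ t ∈ X.Lb, 2 * t.1 + 3 * t.2.1 ≤ X.P.D + X.P.g
  hψ : ∀ c, InSx 1 c → 0 ≤ potL X.Lc c

/-- The right side of a merge inequality. -/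
def Ctx.rhs (X : Ctx) (a b : Tp) : ℝ := rhs3 X.La X.Lb X.C X.t a b

/-- The merge inequality on a pair of triangles. -/
def HoldsN (X : Ctx) (Ta Tb : Trg) : Prop :=
  0 < Ta.den → 0 < Tb.den → ∀ u v w u' v' w' : ℝ, 0 ≤ u → 0 ≤ v → 0 ≤ w → 0 ≤ u' → 0 ≤ v' → 0 ≤ w' →
    u + v + w = 1 → u' + v' + w' = 1 → InSx 1 (Ta.pt u v w) → InSx 1 (Tb.pt u' v' w') →
    cyc X.Lc (Ta.pt u v w) (Tb.pt u' v' w') ≤ X.rhs (Ta.pt u v w) (Tb.pt u' v' w')

/-- The bound on the range of the normalization. -/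
def QB (P : Par) (Q : List (ℕ × ℤ)) (l h : ℤ) : Prop :=
  Q ≠ [] ∧ (∀ t ∈ Q, t.1 ≤ P.g) ∧ 0 < l ∧ ∀ y : ℝ, (l : ℝ) / P.e ≤ y → y ≤ (h : ℝ) / P.e →
    (P.qd : ℝ) ≤ y ^ (P.D - 1) * qPoly Q y

/-- What has to be known of a rotation beforehand. -/
def RT.good (X : Ctx) : RT → Prop
  | .q Q l h => QB X.P Q l h
  | .top => ∀ c, InSx 1 c → potL X.Lc c ≤ X.M

/-- The two checks of the range of the normalization. -/
def rngOK (P : Par) (Da Db : ℤ) (A B : E3) : RT → Bool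
  | .q _ l h =>
    let N := nE Da Db A B
    let σ : Ex := .mul (.c (Da * Db)) (.mul sA sB)
    chk 1 1 (.sub (.mul (.c P.e) N) (.mul (.c l) σ)) && chk 1 1 (.sub (.mul (.c h) σ) (.mul (.c P.e) N))
  | .top => true

/-- All the checks of a leaf. -/
def leafOK (X : Ctx) (Ta Tb : Trg) (r0 r1 r2 : RT) : Bool :=
  rngOK X.P Ta.den Tb.den Ta.exA Tb.exB r0 && rngOK X.P Ta.den Tb.den Ta.exA Tb.exB.r1 r1 &&
    rngOK X.P Ta.den Tb.den Ta.exA Tb.exB.r2 r2 &&
    chk (X.P.D + X.P.g) (X.P.D + X.P.g)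
      (mkQ3 Ta Tb X.Lc X.La X.Lb X.C X.t X.P.D X.P.g X.P.qd X.M r0 r1 r2)

lemma nonneg_N {a b : Tp} (ha : InSx 1 a) (hb : InSx 1 b) : 0 ≤ 1 + 3 * sF a b := by
  have hza := ha.zs
  have hzb := hb.zs
  simp only [Tp.ZS] at hza hzb
  have h : 1 + 3 * sF a b = 3 * ((1 / 3 + a.x) * (1 / 3 + b.x) + (1 / 3 + a.y) * (1 / 3 + b.y) +
      (1 / 3 + a.z) * (1 / 3 + b.z)) := by
    simp only [sF]
    linear_combination (-1 : ℝ) * hza + (-1 : ℝ) * hzb
  rw [h]
  have h1 := ha.hx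
  have h2 := ha.hy
  have h3 := ha.hz
  have h4 := hb.hx
  have h5 := hb.hy
  have h6 := hb.hz
  have k1 : 0 ≤ (1 / 3 + a.x) * (1 / 3 + b.x) := mul_nonneg (by linarith) (by linarith)
  have k2 : 0 ≤ (1 / 3 + a.y) * (1 / 3 + b.y) := mul_nonneg (by linarith) (by linarith)
  have k3 : 0 ≤ (1 / 3 + a.z) * (1 / 3 + b.z) := mul_nonneg (by linarith) (by linarith)
  linarith

/-- A rotation is good at a point of the leaf. -/
lemma RT_good_at {X : Ctx} (hX : X.OK) {rt : RT} (hg : rt.good X) {Da Db : ℤ} (pa : 0 < Da) (pb : 0 < Db)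
    {A B : E3} (hc : rngOK X.P Da Db A B rt = true) {r : Fin 6 → ℝ} (hr : ∀ i, 0 ≤ r i)
    (hS : sA.val r = 1) (hT : sB.val r = 1) {a b : Tp} (hA : A.val r = scale (Da : ℝ) a)
    (hB : B.val r = scale (Db : ℝ) b) (ha : InSx 1 a) (hb : InSx 1 b) :
    RTgood X.Lc X.P.D X.P.g X.P.qd X.M a b rt := by
  have pDa : (0 : ℝ) < Da := by exact_mod_cast pa
  have pDb : (0 : ℝ) < Db := by exact_mod_cast pb
  have pD : (0 : ℝ) < (Da : ℝ) * Db := mul_pos pDa pDb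
  cases rt with
  | q Q l h =>
    obtain ⟨hne, hQg, hl0, hbd⟩ := hg
    simp only [rngOK, Bool.and_eq_true] at hc
    obtain ⟨c1, c2⟩ := hc
    have k1 := chk_val c1 r hr
    have k2 := chk_val c2 r hr
    have hN := val_nE hS hT hA hB Da Db rfl rfl
    have hσ : (Ex.mul (.c (Da * Db)) (.mul sA sB)).val r = (Da : ℝ) * Db := by
      simp only [Ex.val, hS, hT, mul_one]
      push_cast
      rfl
    simp only [Ex.val] at k1 k2 hσ
    rw [hN, hσ] at k1 k2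
    have he : (0 : ℝ) < X.P.e := by exact_mod_cast hX.he
    have hl : (0 : ℝ) < l := by exact_mod_cast hl0
    set n := 1 + 3 * sF a b with hn
    have e1 : ((X.P.e : ℤ) : ℝ) * ((Da : ℝ) * Db * n) - (l : ℝ) * ((Da : ℝ) * Db) =
        ((Da : ℝ) * Db) * ((X.P.e : ℝ) * n - l) := by ring
    have e2 : (h : ℝ) * ((Da : ℝ) * Db) - ((X.P.e : ℤ) : ℝ) * ((Da : ℝ) * Db * n) =
        ((Da : ℝ) * Db) * ((h : ℝ) - (X.P.e : ℝ) * n) := by ring
    rw [e1] at k1
    rw [e2] at k2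
    have k1' := nonneg_of_mul_nonneg_right k1 pD
    have k2' := nonneg_of_mul_nonneg_right k2 pD
    have y0 : (l : ℝ) / X.P.e ≤ n := by
      rw [div_le_iff₀ he]; linarith
    have y1 : n ≤ (h : ℝ) / X.P.e := by
      rw [le_div_iff₀ he]; linarith
    have hpos : 0 < n := lt_of_lt_of_le (div_pos hl he) y0
    exact ⟨hne, hQg, hpos, hbd n y0 y1, hX.hψ _ (wF_inSx ha hb hpos)⟩
  | top =>
    exact ⟨nonneg_N ha hb, fun hp => hg _ (wF_inSx ha hb hp)⟩

/-- **A leaf.**  The checks give the merge inequality on the pair of triangles. -/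
theorem leaf {X : Ctx} (hX : X.OK) {r0 r1 r2 : RT} (g0 : r0.good X) (g1 : r1.good X) (g2 : r2.good X)
    {Ta Tb : Trg} (hc : leafOK X Ta Tb r0 r1 r2 = true) : HoldsN X Ta Tb := by
  intro hDa hDb u v w u' v' w' hu hv hw hu' hv' hw' hs hs' ha hb
  simp only [leafOK, Bool.and_eq_true] at hc
  obtain ⟨⟨⟨c0, c1⟩, c2⟩, c3⟩ := hc
  have hr : ∀ i, 0 ≤ mkR u v w u' v' w' i := by
    intro i; fin_cases i <;> simp [mkR] <;> assumption
  have hP : Pt (mkR u v w u' v' w') Ta Tb (Ta.pt u v w) (Tb.pt u' v' w') := by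
    refine ⟨by simpa [mkR] using hs, by simpa [mkR] using hs', ?_, ?_⟩
    · rw [exA_val _ _ hDa]; rfl
    · rw [exB_val _ _ hDb]; rfl
  have hS : sA.val (mkR u v w u' v' w') = 1 := by rw [val_sA]; exact hP.sa
  have hT : sB.val (mkR u v w u' v' w') = 1 := by rw [val_sB]; exact hP.sb
  have pa : (0 : ℤ) < (Ta.den : ℤ) := by exact_mod_cast hDa
  have pb : (0 : ℤ) < (Tb.den : ℤ) := by exact_mod_cast hDb
  have hA : Ta.exA.val (mkR u v w u' v' w') = scale (((Ta.den : ℕ) : ℤ) : ℝ) (Ta.pt u v w) := by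
    have := hP.va
    push_cast
    exact this
  have hB : Tb.exB.val (mkR u v w u' v' w') = scale (((Tb.den : ℕ) : ℤ) : ℝ) (Tb.pt u' v' w') := by
    have := hP.vb
    push_cast
    exact this
  have hB1 : Tb.exB.r1.val (mkR u v w u' v' w') = scale (((Tb.den : ℕ) : ℤ) : ℝ) (Tb.pt u' v' w').r1 := by
    rw [r1_val, hB, r1_scale]
  have hB2 : Tb.exB.r2.val (mkR u v w u' v' w') = scale (((Tb.den : ℕ) : ℤ) : ℝ) (Tb.pt u' v' w').r2 := by
    rw [r2_val, hB, r2_scale]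
  have h0 := RT_good_at hX g0 pa pb c0 hr hS hT hA hB ha hb
  have h1 := RT_good_at hX g1 pa pb c1 hr hS hT hA hB1 ha hb.r1'
  have h2 := RT_good_at hX g2 pa pb c2 hr hS hT hA hB2 ha hb.r2'
  exact cyc_le_of_check3 c3 rfl hX.hn6 hX.hLc hX.hLa hX.hLb hX.hD1 hX.hqd hX.hcL hX.haL hX.hbL hDa hDb hr hP
    h0 h1 h2

/-- Bisect the first triangle. -/
theorem HoldsN.splitA {X : Ctx} {Ta Tb : Trg} (h1 : HoldsN X (Trg.left Ta) Tb)
    (h2 : HoldsN X (Trg.right Ta) Tb) : HoldsN X Ta Tb := by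
  intro hDa hDb u v w u' v' w' hu hv hw hu' hv' hw' hs hs'
  rcases le_total w v with h | h
  · rw [Trg.left_pt Ta hDa u v w]
    exact h1 (Trg.left_den hDa) hDb _ _ _ _ _ _ (by linarith) hu (by linarith) hu' hv' hw' (by linarith) hs'
  · rw [Trg.right_pt Ta hDa u v w]
    exact h2 (Trg.right_den hDa) hDb _ _ _ _ _ _ (by linarith) (by linarith) hu hu' hv' hw' (by linarith) hs'

/-- Bisect the second triangle. -/
theorem HoldsN.splitB {X : Ctx} {Ta Tb : Trg} (h1 : HoldsN X Ta (Trg.left Tb))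
    (h2 : HoldsN X Ta (Trg.right Tb)) : HoldsN X Ta Tb := by
  intro hDa hDb u v w u' v' w' hu hv hw hu' hv' hw' hs hs'
  rcases le_total w' v' with h | h
  · rw [Trg.left_pt Tb hDb u' v' w']
    exact h1 hDa (Trg.left_den hDb) _ _ _ _ _ _ hu hv hw (by linarith) hu' (by linarith) hs (by linarith)
  · rw [Trg.right_pt Tb hDb u' v' w']
    exact h2 hDa (Trg.right_den hDb) _ _ _ _ _ _ hu hv hw (by linarith) (by linarith) hu' hs (by linarith)

/-! ### The bound on the range of the normalization -/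

/-- The check of the bound on a uniform grid of an interval. -/
def qGridA (Q : List (ℕ × ℤ)) (D g : ℕ) (qd l h e : ℤ) (K : ℕ) : Bool :=
  (List.range K).all fun i =>
    chk 0 (D - 1 + g) (qBoundE Q D g qd (l * K + (h - l) * i) (l * K + (h - l) * (i + 1)) (e * K))

/-- The bound from the check of the whole grid. -/
theorem qGridA_bound {Q : List (ℕ × ℤ)} {D g : ℕ} {qd l h e : ℤ} {K : ℕ} (hK : 0 < K)
    (hQne : Q ≠ []) (hQ : ∀ t ∈ Q, t.1 ≤ g) (he : 0 < e) (hlh : l < h)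
    (hc : qGridA Q D g qd l h e K = true) {y : ℝ}
    (hy0 : (l : ℝ) / e ≤ y) (hy1 : y ≤ (h : ℝ) / e) :
    (qd : ℝ) ≤ y ^ (D - 1) * qPoly Q y := by
  have hK' : (0 : ℝ) < K := by exact_mod_cast hK
  have he' : (0 : ℝ) < e := by exact_mod_cast he
  have hlh' : (l : ℝ) < h := by exact_mod_cast hlh
  have hab : (l : ℝ) / e < (h : ℝ) / e := div_lt_div_of_pos_right hlh' he'
  obtain ⟨i, hi, c0, c1⟩ := exists_cell hK hab hy0 hy1
  simp only [qGridA, List.all_eq_true, List.mem_range] at hc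
  refine qBound_of_check hQne hQ (by positivity) ?_ (hc i hi) ?_ ?_
  · nlinarith
  · push_cast
    have e1 : ((l : ℝ) * K + (h - l) * i) / (e * K) =
        (l : ℝ) / e + ((h : ℝ) / e - (l : ℝ) / e) * ((i : ℝ) / K) := by
      field_simp
    rw [e1]
    exact c0
  · push_cast
    have e1 : ((l : ℝ) * K + (h - l) * (i + 1)) / (e * K) =
        (l : ℝ) / e + ((h : ℝ) / e - (l : ℝ) / e) * (((i : ℝ) + 1) / K) := by
      field_simp
    rw [e1]
    exact c1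

/-- The check of the bound on an interval, with a list of cut points and grid sizes: the pieces are
`[p_i, p_(i+1)]`. -/
def qCheck (P : Par) (Q : List (ℕ × ℤ)) : ℤ → List (ℤ × ℕ) → Bool
  | _, [] => true
  | l, (h, K) :: rest =>
    Nat.blt 0 K && decide (l < h) && qGridA Q P.D P.g P.qd l h P.e K && qCheck P Q h rest

/-- The end of the last piece. -/
def lastCut : ℤ → List (ℤ × ℕ) → ℤ
  | l, [] => l
  | _, (h, _) :: rest => lastCut h rest

lemma qCheck_bound {P : Par} {Q : List (ℕ × ℤ)} (hQne : Q ≠ []) (hQ : ∀ t ∈ Q, t.1 ≤ P.g) (he : 0 < P.e) :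
    ∀ (pts : List (ℤ × ℕ)) (l : ℤ), qCheck P Q l pts = true → ∀ y : ℝ, (l : ℝ) / P.e ≤ y →
      y ≤ (lastCut l pts : ℝ) / P.e → pts ≠ [] → (P.qd : ℝ) ≤ y ^ (P.D - 1) * qPoly Q y := by
  intro pts
  induction pts with
  | nil => intro l _ y _ _ h; exact absurd rfl h
  | cons x rest ih =>
    intro l hc y h0 h1 _
    obtain ⟨h, K⟩ := x
    simp only [qCheck, Bool.and_eq_true, decide_eq_true_eq] at hc
    obtain ⟨⟨⟨hK, hlh⟩, hg⟩, hr⟩ := hc
    have hK' : 0 < K := by simpa [Nat.blt_eq] using hK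
    by_cases hy : y ≤ (h : ℝ) / P.e
    · exact qGridA_bound hK' hQne hQ he hlh hg h0 hy
    · push Not at hy
      cases rest with
      | nil =>
        simp only [lastCut] at h1
        exact absurd hy (not_lt.mpr h1)
      | cons z rest' =>
        exact ih h hr y hy.le h1 (by simp)

/-- The bound on an interval from the check. -/
theorem QB_of_check {P : Par} {Q : List (ℕ × ℤ)} {l h : ℤ} {pts : List (ℤ × ℕ)} (hQne : Q ≠ [])
    (hQ : (Q.all fun t => decide (t.1 ≤ P.g)) = true) (he : 0 < P.e) (hl : 0 < l) (hp : pts ≠ [])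
    (hlast : lastCut l pts = h) (hc : qCheck P Q l pts = true) : QB P Q l h := by
  have hQ' : ∀ t ∈ Q, t.1 ≤ P.g := by
    intro t ht
    have := List.all_eq_true.1 hQ t ht
    simpa using this
  refine ⟨hQne, hQ', hl, fun y h0 h1 => ?_⟩
  subst hlast
  exact qCheck_bound hQne hQ' he pts l hc y h0 h1 hp

/-! ### From the two chambers to all pairs -/

/-- The terms of the right side. -/
def rList (X : Ctx) : List (ℕ × ℕ × ℕ × ℕ × ℤ) :=
  (1, 0, 3, 0, X.C) :: (1, 0, 1, 0, -X.t) :: (X.La.map fun t => (t.1, t.2.1, 0, 0, t.2.2)) ++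
    X.Lb.map fun t => (0, 0, t.1, t.2.1, t.2.2)

lemma rhsL_rList (X : Ctx) (a b : Tp) : rhsL (rList X) a b = X.rhs a b := by
  have h1 : ∀ l : List (ℕ × ℕ × ℤ), ((l.map fun t => ((t.1, t.2.1, 0, 0, t.2.2) : ℕ × ℕ × ℕ × ℕ × ℤ)).map
      fun t => (t.2.2.2.2 : ℝ) * (p2T a ^ t.1 * p3T a ^ t.2.1 * (p2T b ^ t.2.2.1 * p3T b ^ t.2.2.2.1))).sum =
      potL l a := by
    intro l
    simp only [potL, List.map_map, Function.comp]
    congr 1
    apply List.map_congr_left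
    intro t _
    simp
  have h2 : ∀ l : List (ℕ × ℕ × ℤ), ((l.map fun t => ((0, 0, t.1, t.2.1, t.2.2) : ℕ × ℕ × ℕ × ℕ × ℤ)).map
      fun t => (t.2.2.2.2 : ℝ) * (p2T a ^ t.1 * p3T a ^ t.2.1 * (p2T b ^ t.2.2.1 * p3T b ^ t.2.2.2.1))).sum =
      potL l b := by
    intro l
    simp only [potL, List.map_map, Function.comp]
    congr 1
    apply List.map_congr_left
    intro t _
    simp
  simp only [rhsL, rList, List.map_cons, List.sum_cons, List.map_append, List.sum_append, h1, h2, Ctx.rhs, rhs3]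
  push_cast
  simp only [pow_zero, pow_one, mul_one, one_mul]
  ring

lemma avg_sc {X : Ctx} (a b : Tp) (h : cyc X.Lc a b ≤ X.rhs a b) (h3 : cyc X.Lc a b.r3 ≤ X.rhs a b) :
    KT (potL X.Lc) a b ≤ X.rhs a b := by
  have := avg6_cyc X.Lc a b
  simp only [KT]
  rw [this]
  linarith

/-- All the `a`, `a` sorted and `c` on the simplex being enough, where the first point is also scaled. -/
lemma all_aS (X : Ctx) (s : ℝ) (hS : ∀ a c, InSx 1 a → Srt a → InSx 1 c →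
      cyc X.Lc (sc s a) (sc s c) ≤ X.rhs (sc s a) (sc s c)) (a c : Tp)
    (ha : InSx 1 a) (hc : InSx 1 c) : cyc X.Lc (sc s a) (sc s c) ≤ X.rhs (sc s a) (sc s c) := by
  have hr3 : ∀ a b : Tp, X.rhs a.r3 b.r3 = X.rhs a b := fun a b => by
    rw [← rhsL_rList, ← rhsL_rList, rhsL_r3]
  have hr4 : ∀ a b : Tp, X.rhs a.r4 b.r4 = X.rhs a b := fun a b => by
    rw [← rhsL_rList, ← rhsL_rList, rhsL_r4]
  have s3 : ∀ a c, cyc X.Lc (sc s a.r3) (sc s c.r3) ≤ X.rhs (sc s a.r3) (sc s c.r3) →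
      cyc X.Lc (sc s a) (sc s c) ≤ X.rhs (sc s a) (sc s c) := fun a c h => by
    rwa [sc_r3, sc_r3, cyc_r3, hr3] at h
  have s4 : ∀ a c, cyc X.Lc (sc s a.r4) (sc s c.r4) ≤ X.rhs (sc s a.r4) (sc s c.r4) →
      cyc X.Lc (sc s a) (sc s c) ≤ X.rhs (sc s a) (sc s c) := fun a c h => by
    rwa [sc_r4, sc_r4, cyc_r4, hr4] at h
  rcases le_total a.y a.x with h1 | h1 <;> rcases le_total a.z a.y with h2 | h2 <;>
    rcases le_total a.z a.x with h3 | h3
  · exact hS a c ha ⟨h1, h2⟩ hc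
  · exact hS a c ha ⟨h1, h2⟩ hc
  · exact s3 a c (hS _ _ ha.r3' ⟨h3, h2⟩ hc.r3')
  · refine s3 a c (s4 _ _ (hS _ _ ha.r3'.r4' ?_ hc.r3'.r4'))
    exact ⟨h3, h1⟩
  · exact s4 a c (hS _ _ ha.r4' ⟨h1, h3⟩ hc.r4')
  · refine s4 a c (s3 _ _ (hS _ _ ha.r4'.r3' ?_ hc.r4'.r3'))
    exact ⟨h2, h3⟩
  · have := hS a c ha ⟨by linarith, by linarith⟩ hc
    exact this
  · refine s3 a c (s4 _ _ (s3 _ _ (hS _ _ ha.r3'.r4'.r3' ?_ hc.r3'.r4'.r3')))
    exact ⟨h2, h1⟩

lemma chamber_den_pos : 0 < (chamber 1 1).den := by simp [chamber]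

/-- The second group over both chambers, for a fixed first point. -/
lemma all_cN {X : Ctx} {p q : ℕ} (hq : 0 < q) (hs : 2 * p ≤ q) {Ta : Trg} (hDa : 0 < Ta.den)
    (hP : HoldsN X Ta (chamberN p q)) (hM : HoldsN X Ta (chamberNR p q))
    {u v w : ℝ} (hu : 0 ≤ u) (hv : 0 ≤ v) (hw : 0 ≤ w) (hs1 : u + v + w = 1) (ha : InSx 1 (Ta.pt u v w))
    (c : Tp) (hc : InSx 1 c) :
    cyc X.Lc (Ta.pt u v w) (sc ((p : ℝ) / q) c) ≤ X.rhs (Ta.pt u v w) (sc ((p : ℝ) / q) c) := by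
  have hq' : (0 : ℝ) < q := by exact_mod_cast hq
  set s : ℝ := (p : ℝ) / q with hs'
  have hs0 : 0 ≤ s := by positivity
  have hs1' : 2 * s ≤ 1 := by
    rw [hs', ← mul_div_assoc, div_le_one hq']
    exact_mod_cast hs
  have hDN : 0 < (chamberN p q).den := chamberN_den p q hq
  have hDR : 0 < (chamberNR p q).den := chamberNR_den p q hq
  have goal := all_bN (L := X.Lc) (R := rList X) s (Ta.pt u v w) ?_ ?_ c hc
  · rwa [rhsL_rList] at goal
  · intro c' hc' hsc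
    obtain ⟨u', v', w', hu', hv', hw', hs2, rfl⟩ := chamber_coord (p := 1) (q := 1) (by norm_num)
      (by norm_num) (by simpa using hc') hsc
    have e : sc s ((chamber 1 1).pt u' v' w') = (chamberN p q).pt u' v' w' := by
      rw [chamberN_pt p q hq]; rfl
    rw [rhsL_rList, e]
    refine hP hDa hDN u v w u' v' w' hu hv hw hu' hv' hw' hs1 hs2 ha ?_
    rw [← e]
    exact sc_inSx hc' hs0 hs1'
  · intro c' hc' hsc
    obtain ⟨u', v', w', hu', hv', hw', hs2, rfl⟩ := chamber_coord (p := 1) (q := 1) (by norm_num)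
      (by norm_num) (by simpa using hc') hsc
    have e : (sc s ((chamber 1 1).pt u' v' w')).r3 = (chamberNR p q).pt u' v' w' := by
      rw [chamberNR_pt p q hq]; rfl
    have hk := hM hDa hDR u v w u' v' w' hu hv hw hu' hv' hw' hs1 hs2 ha (by
      rw [← e]; exact (sc_inSx hc' hs0 hs1').r3')
    rw [← e] at hk
    have e3 : X.rhs (Ta.pt u v w) (sc s ((chamber 1 1).pt u' v' w')).r3 =
        X.rhs (Ta.pt u v w) (sc s ((chamber 1 1).pt u' v' w')) := by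
      rw [← rhsL_rList, ← rhsL_rList, rhsL_b3]
    rw [rhsL_rList]
    rwa [e3] at hk

/-- **The merge inequality for all pairs, first point on the simplex.** -/
theorem KT_le_all {X : Ctx} {p q : ℕ} (hq : 0 < q) (hs : 2 * p ≤ q)
    (hP : HoldsN X (chamber 1 1) (chamberN p q)) (hM : HoldsN X (chamber 1 1) (chamberNR p q))
    (a c : Tp) (ha : InSx 1 a) (hc : InSx 1 c) :
    KT (potL X.Lc) a (sc ((p : ℝ) / q) c) ≤ X.rhs a (sc ((p : ℝ) / q) c) := by
  have key : ∀ a c, InSx 1 a → InSx 1 c →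
      cyc X.Lc a (sc ((p : ℝ) / q) c) ≤ X.rhs a (sc ((p : ℝ) / q) c) := by
    intro a c ha hc
    have goal := all_aN (L := X.Lc) (R := rList X) ((p : ℝ) / q) ?_ a c ha hc
    · rwa [rhsL_rList] at goal
    · intro a c ha hsa hc
      rw [rhsL_rList]
      obtain ⟨u, v, w, hu, hv, hw, hs1, rfl⟩ := chamber_coord (p := 1) (q := 1) (by norm_num) (by norm_num)
        (by simpa using ha) hsa
      exact all_cN hq hs chamber_den_pos hP hM hu hv hw hs1 ha c hc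
  refine avg_sc _ _ (key a c ha hc) ?_
  have h3 := key a c.r3 ha hc.r3'
  have e3 : X.rhs a (sc ((p : ℝ) / q) c.r3) = X.rhs a (sc ((p : ℝ) / q) c) := by
    rw [← rhsL_rList, ← rhsL_rList, sc_r3, rhsL_b3]
  rw [e3, sc_r3] at h3
  exact h3

/-- **The merge inequality for all pairs, both points scaled.** -/
theorem KT_le_all2 {X : Ctx} {p q : ℕ} (hq : 0 < q) (hs : 2 * p ≤ q)
    (hP : HoldsN X (chamberN p q) (chamberN p q)) (hM : HoldsN X (chamberN p q) (chamberNR p q))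
    (a c : Tp) (ha : InSx 1 a) (hc : InSx 1 c) :
    KT (potL X.Lc) (sc ((p : ℝ) / q) a) (sc ((p : ℝ) / q) c) ≤ X.rhs (sc ((p : ℝ) / q) a) (sc ((p : ℝ) / q) c) := by
  have hq' : (0 : ℝ) < q := by exact_mod_cast hq
  set s : ℝ := (p : ℝ) / q with hs'
  have hs0 : 0 ≤ s := by positivity
  have hs1' : 2 * s ≤ 1 := by
    rw [hs', ← mul_div_assoc, div_le_one hq']
    exact_mod_cast hs
  have key : ∀ a c, InSx 1 a → InSx 1 c → cyc X.Lc (sc s a) (sc s c) ≤ X.rhs (sc s a) (sc s c) := by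
    intro a c ha hc
    refine all_aS X s (fun a c ha hsa hc => ?_) a c ha hc
    obtain ⟨u, v, w, hu, hv, hw, hs1, rfl⟩ := chamber_coord (p := 1) (q := 1) (by norm_num) (by norm_num)
      (by simpa using ha) hsa
    have e : sc s ((chamber 1 1).pt u v w) = (chamberN p q).pt u v w := by
      rw [chamberN_pt p q hq]; rfl
    rw [e]
    refine all_cN hq hs (chamberN_den p q hq) hP hM hu hv hw hs1 ?_ c hc
    rw [← e]
    exact sc_inSx ha hs0 hs1'
  refine avg_sc _ _ (key a c ha hc) ?_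
  have h3 := key a c.r3 ha hc.r3'
  have e3 : X.rhs (sc s a) (sc s c.r3) = X.rhs (sc s a) (sc s c) := by
    rw [← rhsL_rList, ← rhsL_rList, sc_r3, rhsL_b3]
  rw [e3, sc_r3] at h3
  exact h3

end

end Vale.Agent.Lib.P154N
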