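import Vale.Agent.Lib.P154N.D4.Final
import Vale.Agent.Lib.P154N.D5.Final
import Vale.Agent.Lib.P154N.D6.Final
import Vale.Agent.Lib.P154N.D7.Final
import Vale.Agent.Lib.P154N.D8.Final
import Vale.Agent.Lib.P154Anti.MonoD

/-!
# Nonreconstruction for three colours, negative eigenvalue, at most eight children
-/

open Filter Topology

namespace Vale.Agent.Lib.P154N

open Vale.Agent.Lib.P154

/-- **Nonreconstruction** on the tree with `d` children, `2 ≤ d ≤ 8`, for every admissible negative eigenvalue at the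
bound of Kesten and Stigum or below it. -/
theorem tendsto_small {d : ℕ} (h2 : 2 ≤ d) (h8 : d ≤ 8) {lam : ℝ} (hl0 : -1 / 2 ≤ lam) (hlam : lam < 0)
    (hd : (d : ℝ) * lam ^ 2 ≤ 1) : Tendsto (reconDist 3 d lam) atTop (𝓝 0) := by
  have hl1 : lam ≤ 1 := by linarith
  have h4 : (4 : ℝ) * lam ^ 2 ≤ 1 := by nlinarith
  have h44 : Tendsto (reconDist 3 4 lam) atTop (𝓝 0) := D4.tendsto hlam h4
  have h33 : Tendsto (reconDist 3 3 lam) atTop (𝓝 0) :=
    Vale.Agent.Lib.P154Anti.tendsto_of_succ 1 hl0 hl1 h44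
  have h22 : Tendsto (reconDist 3 2 lam) atTop (𝓝 0) :=
    Vale.Agent.Lib.P154Anti.tendsto_of_succ 0 hl0 hl1 h33
  interval_cases d
  · exact h22
  · exact h33
  · exact h44
  · exact D5.tendsto hlam (by exact_mod_cast hd)
  · exact D6.tendsto hlam (by exact_mod_cast hd)
  · exact D7.tendsto hlam (by exact_mod_cast hd)
  · exact D8.tendsto hlam (by exact_mod_cast hd)

end Vale.Agent.Lib.P154N
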